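import Mathlib

/-!
# P166: definitions
-/

namespace Vale.Agent.P166

open MeasureTheory Matrix Filter Topology

/-- a configuration of `±1` spins as a real vector -/
def spin {N : ℕ} (σ : Fin N → Bool) : Fin N → ℝ := fun i => if σ i then 1 else -1

/-- the coupling matrix `J = Uᵀ Λ U`, `Λ = diag(lam)` -/
def coupling {N : ℕ} (lam : Fin N → ℝ) (U : Matrix (Fin N) (Fin N) ℝ) :
    Matrix (Fin N) (Fin N) ℝ := Uᵀ * Matrix.diagonal lam * U

/-- the pressure `P_N(β) = N⁻¹ log (2^{-N} ∑_σ exp((β/2) σᵀ J σ))` -/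
noncomputable def pressure {N : ℕ} (β : ℝ) (J : Matrix (Fin N) (Fin N) ℝ) : ℝ :=
  (1 / (N : ℝ)) * Real.log ((1 / 2 : ℝ) ^ N *
    ∑ σ : Fin N → Bool, Real.exp (β / 2 * (spin σ ⬝ᵥ J *ᵥ spin σ)))

/-- `U` is a Haar distributed random matrix of the orthogonal group `O(N)`: the entries are
measurable, `U` is orthogonal, and the law of `V U` is the law of `U` for every orthogonal `V`. -/
structure IsHaar {Ω : Type*} [MeasurableSpace Ω] (P : Measure Ω) {N : ℕ}
    (U : Ω → Matrix (Fin N) (Fin N) ℝ) : Prop where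
  meas : ∀ i j, Measurable fun ω => U ω i j
  orth : ∀ ω, U ω ∈ Matrix.orthogonalGroup (Fin N) ℝ
  inv : ∀ V ∈ Matrix.orthogonalGroup (Fin N) ℝ,
    P.map (fun ω => (fun i j => (V * U ω) i j : Fin N → Fin N → ℝ)) =
      P.map (fun ω => (fun i j => U ω i j : Fin N → Fin N → ℝ))

/-- the support of a measure on the line -/
def supp (μ : Measure ℝ) : Set ℝ := {x | ∀ ε > 0, 0 < μ (Set.Ioo (x - ε) (x + ε))}

/-- The assumptions of the problem on the eigenvalues `Λ_N = diag(lam N 0, …, lam N (N-1))`: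
the empirical measures converge weakly to `μ` and the smallest and largest eigenvalues converge to
`min supp μ` and `max supp μ`. -/
structure Admissible (μ : Measure ℝ) (lam : ∀ N : ℕ, Fin N → ℝ) : Prop where
  weak : ∀ f : ℝ → ℝ, Continuous f → (∃ C, ∀ x, |f x| ≤ C) →
    Tendsto (fun N : ℕ => (∑ i, f (lam N i)) / N) atTop (𝓝 (∫ x, f x ∂μ))
  smallest : ∃ a, IsLeast (supp μ) a ∧ Tendsto (fun N => ⨅ i, lam N i) atTop (𝓝 a)
  largest : ∃ b, IsGreatest (supp μ) b ∧ Tendsto (fun N => ⨆ i, lam N i) atTop (𝓝 b)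

/-- the expected pressure `E P_N(β)` -/
noncomputable def EP {Ω : ℕ → Type*} [∀ N, MeasurableSpace (Ω N)] (P : ∀ N, Measure (Ω N))
    (U : ∀ N, Ω N → Matrix (Fin N) (Fin N) ℝ) (β : ℝ) (lam : ∀ N : ℕ, Fin N → ℝ) (N : ℕ) : ℝ :=
  ∫ ω, pressure β (coupling (lam N) (U N ω)) ∂(P N)

end Vale.Agent.P166
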