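import Mathlib

/-!
# P166: comparison of symmetric convex functions of the eigenvalues
-/

namespace Vale.Agent.P166

open Finset

/-- the properties of the expected log partition function as a function of the eigenvalues -/
structure Nice {N : ℕ} (K : ℝ) (F : (Fin N → ℝ) → ℝ) : Prop where
  mono : Monotone F
  shift : ∀ (x : Fin N → ℝ) (t : ℝ), F (fun i => x i + t) = F x + K * t
  conv : ConvexOn ℝ Set.univ F
  symm : ∀ (π : Equiv.Perm (Fin N)) (x : Fin N → ℝ), F (x ∘ π) = F x

variable {N : ℕ} {K : ℝ} {F : (Fin N → ℝ) → ℝ}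

/-- averaging over a set of coordinates does not increase `F` -/
theorem Nice.avg_le (hF : Nice K F) (T : Finset (Fin N)) (hT : T.Nonempty) (w : Fin N → ℝ) :
    F (fun i => if i ∈ T then (∑ j ∈ T, w j) / (#T : ℝ) else w i) ≤ F w := by
  classical
  obtain ⟨m, hm⟩ : ∃ m, #T = m + 1 := ⟨#T - 1, by have := hT.card_pos; omega⟩
  let e : Fin (m + 1) ≃ {x // x ∈ T} :=
    (Fintype.equivFinOfCardEq (by rw [Fintype.card_coe]; exact hm)).symm
  let c : Fin (m + 1) → Equiv.Perm {x // x ∈ T} := fun r =>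
    e.symm.trans ((Equiv.addRight r).trans e)
  let π : Fin (m + 1) → Equiv.Perm (Fin N) := fun r => Equiv.Perm.ofSubtype (c r)
  have hpos : (0 : ℝ) < (m + 1 : ℕ) := by positivity
  have hsum : ∑ _r : Fin (m + 1), ((m + 1 : ℕ) : ℝ)⁻¹ = 1 := by
    rw [Finset.sum_const, Finset.card_univ, Fintype.card_fin, nsmul_eq_mul]
    exact mul_inv_cancel₀ hpos.ne'
  have hJ := hF.conv.map_sum_le (t := (Finset.univ : Finset (Fin (m + 1))))
    (w := fun _ => ((m + 1 : ℕ) : ℝ)⁻¹) (p := fun r => w ∘ π r)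
    (fun _ _ => by positivity) hsum (fun _ _ => Set.mem_univ _)
  have h1 : ∑ r : Fin (m + 1), ((m + 1 : ℕ) : ℝ)⁻¹ • F (w ∘ π r) = F w := by
    simp only [hF.symm, smul_eq_mul]
    rw [← Finset.sum_mul, hsum, one_mul]
  rw [h1] at hJ
  refine le_trans (le_of_eq ?_) hJ
  congr 1
  funext i
  rw [Finset.sum_apply]
  simp only [Pi.smul_apply, smul_eq_mul, Function.comp_apply]
  rw [← Finset.mul_sum]
  by_cases hi : i ∈ T
  · rw [if_pos hi]
    have h2 : ∀ r, π r i = (e (e.symm ⟨i, hi⟩ + r) : Fin N) := by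
      intro r
      show Equiv.Perm.ofSubtype (c r) i = _
      rw [Equiv.Perm.ofSubtype_apply_of_mem (c r) hi]
      rfl
    have h3 : ∑ r : Fin (m + 1), w (π r i) = ∑ j ∈ T, w j := by
      calc ∑ r : Fin (m + 1), w (π r i)
          = ∑ r : Fin (m + 1), w (e (e.symm ⟨i, hi⟩ + r) : Fin N) := by
            refine Finset.sum_congr rfl fun r _ => ?_
            rw [h2]
        _ = ∑ r : Fin (m + 1), w (e r : Fin N) :=
            Equiv.sum_comp (Equiv.addLeft (e.symm ⟨i, hi⟩)) (fun r => w (e r : Fin N))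
        _ = ∑ x : {x // x ∈ T}, w (x : Fin N) := Equiv.sum_comp e (fun x => w (x : Fin N))
        _ = ∑ j ∈ T, w j := Finset.sum_coe_sort T w
    rw [h3, hm, div_eq_inv_mul]
  · rw [if_neg hi]
    have h2 : ∀ r, π r i = i := fun r => Equiv.Perm.ofSubtype_apply_of_not_mem (c r) hi
    simp only [h2, Finset.sum_const, Finset.card_univ, Fintype.card_fin, nsmul_eq_mul]
    rw [← mul_assoc, inv_mul_cancel₀ hpos.ne', one_mul]

/-- lowering few coordinates costs little -/
theorem Nice.lower (hF : Nice K F) (x : Fin N → ℝ) (c l : ℝ) (hlc : l ≤ c)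
    (hxc : ∀ i, x i ≤ c) (S A : Finset (Fin N)) (hA : ∀ i ∈ A, x i = c) (hSA : Disjoint S A)
    (hne : A.Nonempty) :
    F x - K * (#S * (c - l) / #A) ≤ F (fun i => if i ∈ S then l else x i) := by
  classical
  have hApos : (0 : ℝ) < #A := by exact_mod_cast hne.card_pos
  set w : Fin N → ℝ := fun i => if i ∈ S then l else x i with hw
  have hT : (A ∪ S).Nonempty := hne.mono Finset.subset_union_left
  have h1 := hF.avg_le (A ∪ S) hT w
  refine le_trans ?_ h1
  have hsub : F x - K * (#S * (c - l) / #A) = F (fun i => x i + -(#S * (c - l) / #A)) := by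
    rw [hF.shift]; ring
  rw [hsub]
  refine hF.mono fun i => ?_
  have hcard : (#(A ∪ S) : ℝ) = #A + #S := by
    rw [Finset.card_union_of_disjoint hSA.symm]; push_cast; ring
  have hSnn : (0 : ℝ) ≤ #S := by positivity
  have hdel : 0 ≤ #S * (c - l) / (#A : ℝ) := by
    have : 0 ≤ c - l := by linarith
    positivity
  by_cases hi : i ∈ A ∪ S
  · simp only [if_pos hi]
    have hsum : ∑ j ∈ A ∪ S, w j = #A * c + #S * l := by
      rw [Finset.sum_union hSA.symm]
      congr 1
      · rw [← nsmul_eq_mul, ← Finset.sum_const]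
        refine Finset.sum_congr rfl fun j hj => ?_
        have hjS : j ∉ S := fun h => (Finset.disjoint_left.mp hSA h) hj
        simp only [hw, if_neg hjS]
        exact hA j hj
      · rw [← nsmul_eq_mul, ← Finset.sum_const]
        refine Finset.sum_congr rfl fun j hj => ?_
        simp only [hw, if_pos hj]
    rw [hsum, hcard]
    have h2 : (#A * c + #S * l) / ((#A : ℝ) + #S) = c - #S * (c - l) / (#A + #S) := by
      field_simp
      ring
    rw [h2]
    have h3 : #S * (c - l) / ((#A : ℝ) + #S) ≤ #S * (c - l) / #A := by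
      apply div_le_div_of_nonneg_left _ hApos (by linarith)
      have : 0 ≤ c - l := by linarith
      positivity
    have := hxc i
    linarith
  · simp only [if_neg hi]
    have hiS : i ∉ S := fun h => hi (Finset.mem_union_right _ h)
    simp only [hw, if_neg hiS]
    linarith

/-- comparison -/
theorem Nice.compare (hF : Nice K F) (hK : 0 ≤ K) (x y : Fin N → ℝ) (c l η Δ : ℝ)
    (hlc : l ≤ c) (hη : 0 ≤ η) (hΔ : 0 ≤ Δ)
    (hx : ∀ i, x i ≤ c + Δ) (hyl : ∀ i, l ≤ y i)
    (S : Finset (Fin N)) (hS : ∀ i ∉ S, x i ≤ y i + η)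
    (k : ℕ) (hk : 0 < k) (hxk : k + #S ≤ #{i | c ≤ x i}) :
    F x ≤ F y + K * (Δ + η + #S * (c - l) / k) := by
  classical
  -- truncation
  set x' : Fin N → ℝ := fun i => min (x i) c with hx'
  have h1 : F x ≤ F x' + K * Δ := by
    rw [← hF.shift]
    refine hF.mono fun i => ?_
    show x i ≤ min (x i) c + Δ
    rcases le_total (x i) c with h | h
    · rw [min_eq_left h]; linarith
    · rw [min_eq_right h]; exact hx i
  set A : Finset (Fin N) := ({i | c ≤ x i} : Finset (Fin N)) \ S with hAdef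
  have hAk : k ≤ #A := by
    have := Finset.le_card_sdiff S ({i | c ≤ x i} : Finset (Fin N))
    rw [hAdef]
    omega
  have hne : A.Nonempty := Finset.card_pos.mp (by omega)
  have h2 := hF.lower x' c l hlc (fun i => min_le_right _ _) S A
    (fun i hi => by
      rw [hAdef, Finset.mem_sdiff, Finset.mem_filter] at hi
      exact min_eq_right hi.1.2)
    (by rw [hAdef]; exact Finset.disjoint_sdiff) hne
  have h3 : F (fun i => if i ∈ S then l else x' i) ≤ F y + K * η := by
    rw [← hF.shift]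
    refine hF.mono fun i => ?_
    by_cases hi : i ∈ S
    · simp only [if_pos hi]
      linarith [hyl i]
    · simp only [if_neg hi]
      exact le_trans (min_le_left _ _) (hS i hi)
  have h4 : (#S : ℝ) * (c - l) / #A ≤ #S * (c - l) / k := by
    have h5 : (0 : ℝ) < k := by exact_mod_cast hk
    have h6 : (k : ℝ) ≤ #A := by exact_mod_cast hAk
    have h7 : 0 ≤ c - l := by linarith
    exact div_le_div_of_nonneg_left (by positivity) h5 h6
  have h5 : K * (#S * (c - l) / #A) ≤ K * (#S * (c - l) / k) := mul_le_mul_of_nonneg_left h4 hK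
  have h6 : K * (Δ + η + #S * (c - l) / k) = K * Δ + K * η + K * (#S * (c - l) / k) := by ring
  linarith

/-- the number of coordinates of sorted vectors which differ much -/
theorem sorted_bad (x y : Fin N → ℝ) (hx : Monotone x) (hy : Monotone y) (η h : ℝ)
    (X : Finset ℝ) (f : ℝ → ℝ → ℝ) (hf0 : ∀ g t, 0 ≤ f g t) (hf1 : ∀ g t, f g t ≤ 1)
    (hfl : ∀ g t, t ≤ g → f g t = 1) (hfr : ∀ g t, g + h ≤ t → f g t = 0)
    (hX : ∀ i, y i + η < x i → ∃ g ∈ X, y i ≤ g ∧ g + h ≤ x i) :
    (#{i | y i + η < x i} : ℝ) ≤ ∑ g ∈ X, |∑ i, f g (x i) - ∑ i, f g (y i)| := by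
  classical
  have hsub : ({i | y i + η < x i} : Finset (Fin N)) ⊆
      X.biUnion (fun g => ({i | y i ≤ g ∧ g + h ≤ x i} : Finset (Fin N))) := by
    intro i hi
    rw [Finset.mem_filter] at hi
    obtain ⟨g, hg, h1, h2⟩ := hX i hi.2
    exact Finset.mem_biUnion.mpr ⟨g, hg, by simp [h1, h2]⟩
  have h1 : (#{i | y i + η < x i} : ℝ) ≤
      ∑ g ∈ X, (#({i | y i ≤ g ∧ g + h ≤ x i} : Finset (Fin N)) : ℝ) := by
    have := (Finset.card_le_card hsub).trans Finset.card_biUnion_le
    exact_mod_cast this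
  refine h1.trans (Finset.sum_le_sum fun g _ => ?_)
  set A : ℕ := #({j | y j ≤ g} : Finset (Fin N)) with hA
  set B : ℕ := #({j | x j < g + h} : Finset (Fin N)) with hB
  have hAf : (A : ℝ) ≤ ∑ i, f g (y i) := by
    rw [hA, Finset.card_filter]
    push_cast
    refine Finset.sum_le_sum fun i _ => ?_
    split_ifs with h3
    · rw [hfl g _ h3]
    · exact hf0 _ _
  have hBf : ∑ i, f g (x i) ≤ (B : ℝ) := by
    rw [hB, Finset.card_filter]
    push_cast
    refine Finset.sum_le_sum fun i _ => ?_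
    split_ifs with h3
    · exact hf1 _ _
    · rw [hfr g _ (not_lt.mp h3)]
  have hsub2 : ({i | y i ≤ g ∧ g + h ≤ x i} : Finset (Fin N)).map Fin.valEmbedding ⊆
      Finset.Ico B A := by
    intro i hi
    rw [Finset.mem_map] at hi
    obtain ⟨j, hj, rfl⟩ := hi
    rw [Finset.mem_filter] at hj
    obtain ⟨_, h3, h4⟩ := hj
    rw [Finset.mem_Ico]
    show B ≤ (j : ℕ) ∧ (j : ℕ) < A
    constructor
    · have h5 : ({j' | x j' < g + h} : Finset (Fin N)) ⊆ Finset.Iio j := by
        intro j' hj'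
        rw [Finset.mem_filter] at hj'
        rw [Finset.mem_Iio]
        by_contra h6
        have := hx (not_lt.mp h6)
        linarith [hj'.2]
      have h6 := Finset.card_le_card h5
      rwa [Fin.card_Iio] at h6
    · have h5 : Finset.Iic j ⊆ ({j' | y j' ≤ g} : Finset (Fin N)) := by
        intro j' hj'
        rw [Finset.mem_Iic] at hj'
        rw [Finset.mem_filter]
        exact ⟨Finset.mem_univ _, (hy hj').trans h3⟩
      have h6 := Finset.card_le_card h5
      rw [Fin.card_Iic] at h6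
      omega
  have h7 : #({i | y i ≤ g ∧ g + h ≤ x i} : Finset (Fin N)) ≤ A - B := by
    have h8 := Finset.card_le_card hsub2
    rwa [Finset.card_map, Nat.card_Ico] at h8
  rcases le_total A B with h9 | h9
  · have : #({i | y i ≤ g ∧ g + h ≤ x i} : Finset (Fin N)) = 0 := by omega
    rw [this]
    simp
  · have h10 : (#({i | y i ≤ g ∧ g + h ≤ x i} : Finset (Fin N)) : ℝ) ≤ (A : ℝ) - B := by
      rw [← Nat.cast_sub h9]
      exact_mod_cast h7
    have h11 := neg_abs_le (∑ i, f g (x i) - ∑ i, f g (y i))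
    linarith

/-- the test functions: `1` on `(-∞, g]`, `0` on `[g + h, ∞)` -/
noncomputable def tent (h g t : ℝ) : ℝ := max 0 (min 1 ((g + h - t) / h))

theorem tent_nonneg (h g t : ℝ) : 0 ≤ tent h g t := le_max_left _ _

theorem tent_le (h g t : ℝ) : tent h g t ≤ 1 := max_le zero_le_one (min_le_left _ _)

theorem tent_left {h : ℝ} (hh : 0 < h) (g t : ℝ) (ht : t ≤ g) : tent h g t = 1 := by
  unfold tent
  have h1 : 1 ≤ (g + h - t) / h := by
    rw [le_div_iff₀ hh]; linarith
  rw [min_eq_left h1, max_eq_right zero_le_one]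

theorem tent_right {h : ℝ} (hh : 0 < h) (g t : ℝ) (ht : g + h ≤ t) : tent h g t = 0 := by
  unfold tent
  have h1 : (g + h - t) / h ≤ 0 := div_nonpos_of_nonpos_of_nonneg (by linarith) hh.le
  rw [min_eq_right (by linarith), max_eq_left h1]

theorem continuous_tent (h g : ℝ) : Continuous (tent h g) := by
  unfold tent
  fun_prop

/-- comparison in terms of the averages of the test functions -/
theorem Nice.compare' (hF : Nice K F) (hK : 0 ≤ K) (x y : Fin N → ℝ) (c l η h Δ : ℝ)
    (hlc : l ≤ c) (hη : 0 ≤ η) (hh : 0 < h) (hΔ : 0 ≤ Δ)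
    (hx : ∀ i, x i ≤ c + Δ) (hyl : ∀ i, l ≤ y i)
    (X : Finset ℝ) (hX : ∀ a b, l ≤ b → a ≤ c + Δ → b + η < a → ∃ g ∈ X, b ≤ g ∧ g + h ≤ a)
    (κ δ : ℝ) (hκ : 0 < κ) (hN : 0 < N)
    (hδ : ∑ g ∈ X, |∑ i, tent h g (x i) - ∑ i, tent h g (y i)| ≤ δ * N) (hδκ : δ ≤ κ)
    (hxk : 2 * κ * N + 1 ≤ #{i | c ≤ x i}) :
    F x ≤ F y + K * (Δ + η + δ * (c - l) / κ) := by
  classical
  set x' : Fin N → ℝ := x ∘ Tuple.sort x with hx'
  set y' : Fin N → ℝ := y ∘ Tuple.sort y with hy'
  have hFx : F x' = F x := hF.symm _ _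
  have hFy : F y' = F y := hF.symm _ _
  have hNr : (0 : ℝ) < N := by exact_mod_cast hN
  set S : Finset (Fin N) := {i | y' i + η < x' i} with hS
  have hScard : (#S : ℝ) ≤ δ * N := by
    refine le_trans (sorted_bad x' y' (Tuple.monotone_sort x) (Tuple.monotone_sort y) η h X
      (tent h) (tent_nonneg h) (tent_le h) (tent_left hh) (tent_right hh) ?_) ?_
    · intro i hi
      exact hX _ _ (hyl _) (hx _) hi
    · refine le_trans (le_of_eq ?_) hδ
      refine Finset.sum_congr rfl fun g _ => ?_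
      have e1 : ∑ i, tent h g (x' i) = ∑ i, tent h g (x i) :=
        Equiv.sum_comp (Tuple.sort x) (fun i => tent h g (x i))
      have e2 : ∑ i, tent h g (y' i) = ∑ i, tent h g (y i) :=
        Equiv.sum_comp (Tuple.sort y) (fun i => tent h g (y i))
      rw [e1, e2]
  have hcx : #{i | c ≤ x' i} = #{i | c ≤ x i} := by
    rw [Finset.card_filter, Finset.card_filter]
    exact Equiv.sum_comp (Tuple.sort x) (fun i => if c ≤ x i then 1 else 0)
  obtain ⟨k, hk1, hk2⟩ : ∃ k : ℕ, κ * N ≤ k ∧ (k : ℝ) ≤ κ * N + 1 :=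
    ⟨⌈κ * N⌉₊, Nat.le_ceil _, (Nat.ceil_lt_add_one (by positivity)).le⟩
  have hkpos : 0 < k := by
    have : (0 : ℝ) < k := lt_of_lt_of_le (by positivity) hk1
    exact_mod_cast this
  have hkS : k + #S ≤ #{i | c ≤ x' i} := by
    have h1 : ((k + #S : ℕ) : ℝ) ≤ (#{i | c ≤ x' i} : ℕ) := by
      rw [hcx]
      push_cast
      have h2 : δ * N ≤ κ * N := mul_le_mul_of_nonneg_right hδκ hNr.le
      linarith
    exact_mod_cast h1
  have h1 := hF.compare hK x' y' c l η Δ hlc hη hΔ (fun i => hx _) (fun i => hyl _) S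
    (fun i hi => by
      rw [hS, Finset.mem_filter, not_and] at hi
      exact not_lt.mp (hi (Finset.mem_univ _))) k hkpos hkS
  rw [hFx, hFy] at h1
  refine h1.trans ?_
  have h2 : (#S : ℝ) * (c - l) / k ≤ δ * (c - l) / κ := by
    have h3 : 0 ≤ c - l := by linarith
    have h4 : (0 : ℝ) < k := by exact_mod_cast hkpos
    rw [div_le_div_iff₀ h4 hκ]
    have hδ0 : 0 ≤ δ := by
      by_contra hneg
      have : (#S : ℝ) < 0 := lt_of_le_of_lt hScard (mul_neg_of_neg_of_pos (not_le.mp hneg) hNr)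
      linarith [Nat.cast_nonneg (α := ℝ) #S]
    calc (#S : ℝ) * (c - l) * κ ≤ δ * N * (c - l) * κ := by gcongr
      _ = δ * (c - l) * (κ * N) := by ring
      _ ≤ δ * (c - l) * k := by gcongr
  have := mul_le_mul_of_nonneg_left (add_le_add_right h2 (Δ + η)) hK
  linarith

end Vale.Agent.P166
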