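import Vale.Agent.H16.SG.Press

/-!
# P166: existence of Haar distributed orthogonal matrices
-/

namespace Vale.Agent.P166

open MeasureTheory Matrix

theorem isCompact_orth (N : ℕ) :
    IsCompact (Matrix.orthogonalGroup (Fin N) ℝ : Set (Matrix (Fin N) (Fin N) ℝ)) := by
  classical
  -- closed and contained in a product of compact intervals
  have hcl : IsClosed (Matrix.orthogonalGroup (Fin N) ℝ : Set (Matrix (Fin N) (Fin N) ℝ)) := by
    have : (Matrix.orthogonalGroup (Fin N) ℝ : Set (Matrix (Fin N) (Fin N) ℝ)) =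
        {A | A * star A = 1} := by
      ext A
      exact Matrix.mem_orthogonalGroup_iff (Fin N) ℝ
    rw [this]
    exact isClosed_eq (continuous_id.mul (continuous_star)) continuous_const
  have hcomp : IsCompact (Set.pi Set.univ (fun _ : Fin N => Set.pi Set.univ
      (fun _ : Fin N => Set.Icc (-1 : ℝ) 1))) :=
    isCompact_univ_pi fun _ => isCompact_univ_pi fun _ => isCompact_Icc
  refine IsCompact.of_isClosed_subset (X := Matrix (Fin N) (Fin N) ℝ) hcomp hcl ?_
  intro A hA
  have h1 : A * star A = 1 := (Matrix.mem_orthogonalGroup_iff (Fin N) ℝ).mp hA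
  refine fun i _ j _ => ?_
  have h2 : ∑ k, A i k * A i k = 1 := by
    have := congrFun (congrFun h1 i) i
    simpa [Matrix.mul_apply, Matrix.star_eq_conjTranspose] using this
  have h3 : A i j * A i j ≤ 1 := by
    rw [← h2]
    exact Finset.single_le_sum (f := fun k => A i k * A i k) (fun k _ => mul_self_nonneg _)
      (Finset.mem_univ j)
  rw [Set.mem_Icc]
  exact abs_le.mp (abs_le_one_iff_mul_self_le_one.mpr h3)

theorem exists_haar (N : ℕ) : ∃ (Ω : Type) (_ : MeasurableSpace Ω) (P : Measure Ω)
    (U : Ω → Matrix (Fin N) (Fin N) ℝ), IsProbabilityMeasure P ∧ IsHaar P U := by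
  classical
  let G := Matrix.orthogonalGroup (Fin N) ℝ
  letI : MeasurableSpace G := borel G
  haveI : BorelSpace G := ⟨rfl⟩
  haveI : CompactSpace G := isCompact_iff_compactSpace.mp (isCompact_orth N)
  let P : Measure G := Measure.haarMeasure ⊤
  have hmeas : ∀ i j, Measurable fun ω : G => (ω : Matrix (Fin N) (Fin N) ℝ) i j := fun i j => by
    have : Continuous fun ω : G => (ω : Matrix (Fin N) (Fin N) ℝ) i j :=
      (continuous_apply_apply i j).comp continuous_subtype_val
    exact this.measurable
  refine ⟨G, inferInstance, P, fun ω => ω, ⟨?_⟩, hmeas, fun ω => ω.2, fun V hV => ?_⟩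
  · have := Measure.haarMeasure_self (K₀ := (⊤ : TopologicalSpace.PositiveCompacts G))
    simpa using this
  · let v : G := ⟨V, hV⟩
    have h1 : Measurable fun ω : G => (fun i j => (ω : Matrix (Fin N) (Fin N) ℝ) i j :
        Fin N → Fin N → ℝ) := measurable_pi_lambda _ fun i => measurable_pi_lambda _ fun j => hmeas i j
    have h2 : (fun ω : G => (fun i j => (V * (ω : Matrix (Fin N) (Fin N) ℝ)) i j :
        Fin N → Fin N → ℝ)) = (fun ω : G => (fun i j => (ω : Matrix (Fin N) (Fin N) ℝ) i j :
        Fin N → Fin N → ℝ)) ∘ (fun ω => v * ω) := by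
      funext ω i j
      rfl
    rw [h2, ← Measure.map_map h1 (measurable_const_mul v), map_mul_left_eq_self P v]

end Vale.Agent.P166
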