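import Vale.Agent.H16.SG.Press

/-!
# P166: asymptotic comparison
-/

namespace Vale.Agent.P166

open Finset MeasureTheory Filter Topology

variable {Ω : ℕ → Type*} [∀ N, MeasurableSpace (Ω N)] {P : ∀ N, Measure (Ω N)}
  [∀ N, IsProbabilityMeasure (P N)] {U : ∀ N, Ω N → Matrix (Fin N) (Fin N) ℝ}

theorem tent_cont_bdd (h g : ℝ) : Continuous (tent h g) ∧ ∃ C, ∀ x, |tent h g x| ≤ C :=
  ⟨continuous_tent h g, 1, fun x => by
    rw [abs_of_nonneg (tent_nonneg h g x)]; exact tent_le h g x⟩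

/-- a finite grid -/
theorem exists_grid (l u h : ℝ) (hh : 0 < h) : ∃ X : Finset ℝ,
    ∀ a b, l ≤ b → a ≤ u → b + 2 * h < a → ∃ g ∈ X, b ≤ g ∧ g + h ≤ a := by
  classical
  obtain ⟨M, hM⟩ := exists_nat_ge ((u - l) / h)
  refine ⟨(Finset.range (M + 2)).image (fun j : ℕ => l + j * h), fun a b hb ha hab => ?_⟩
  set j := ⌈(b - l) / h⌉₊ with hj
  have h1 : (b - l) / h ≤ j := Nat.le_ceil _
  have h2 : (j : ℝ) < (b - l) / h + 1 := Nat.ceil_lt_add_one (by
    apply div_nonneg <;> linarith)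
  have h3 : b - l ≤ j * h := by rwa [div_le_iff₀ hh] at h1
  have h4 : (j : ℝ) * h < b - l + h := by
    have := mul_lt_mul_of_pos_right h2 hh
    rw [add_mul, div_mul_cancel₀ _ hh.ne', one_mul] at this
    exact this
  refine ⟨l + j * h, ?_, by linarith, by linarith⟩
  rw [Finset.mem_image]
  refine ⟨j, ?_, rfl⟩
  rw [Finset.mem_range]
  have h5 : (j : ℝ) < M + 2 := by
    have h6 : (b - l) / h ≤ (u - l) / h := by
      apply div_le_div_of_nonneg_right _ hh.le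
      linarith
    linarith
  exact_mod_cast h5

theorem EP_eq (β : ℝ) (lam : ∀ N : ℕ, Fin N → ℝ) (N : ℕ) :
    EP P U β lam N = (1 / (N : ℝ)) * ∫ ω, LL β (lam N) (U N ω) ∂(P N) := by
  unfold EP
  simp only [pressure_eq]
  rw [integral_const_mul]

/-- asymptotic one-sided comparison -/
theorem asym (hU : ∀ N, IsHaar (P N) (U N)) {β : ℝ} (hβ : 0 ≤ β)
    (c l η h Δ κ δ : ℝ) (hlc : l ≤ c) (hη : 0 ≤ η) (hh : 0 < h) (hΔ : 0 ≤ Δ) (hκ : 0 < κ)
    (hδκ : δ ≤ κ) (X : Finset ℝ)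
    (hX : ∀ a b, l ≤ b → a ≤ c + Δ → b + η < a → ∃ g ∈ X, b ≤ g ∧ g + h ≤ a)
    (μ₁ μ₂ : Measure ℝ) (lam₁ lam₂ : ∀ N : ℕ, Fin N → ℝ) (h₁ : Admissible μ₁ lam₁)
    (h₂ : Admissible μ₂ lam₂) (b₁ a₂ : ℝ) (hb₁ : IsGreatest (supp μ₁) b₁)
    (ha₂ : IsLeast (supp μ₂) a₂) (hb : b₁ < c + Δ) (ha : l < a₂)
    (c' h' : ℝ) (hh' : 0 < h') (hc' : c ≤ c')
    (hk : 2 * κ < 1 - ∫ x, tent h' c' x ∂μ₁)
    (hsum : ∑ g ∈ X, |∫ x, tent h g x ∂μ₁ - ∫ x, tent h g x ∂μ₂| < δ) :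
    ∀ᶠ N in atTop, EP P U β lam₁ N ≤ EP P U β lam₂ N + β / 2 * (Δ + η + δ * (c - l) / κ) := by
  obtain ⟨b, hbg, hbt⟩ := h₁.largest
  obtain ⟨a, hal, hat⟩ := h₂.smallest
  have eb : b = b₁ := hbg.unique hb₁
  have ea : a = a₂ := hal.unique ha₂
  subst eb ea
  have e1 := hbt.eventually (gt_mem_nhds hb)
  have e2 := hat.eventually (lt_mem_nhds ha)
  have e3 : Tendsto (fun N : ℕ => ∑ g ∈ X, |(∑ i, tent h g (lam₁ N i)) / N -
      (∑ i, tent h g (lam₂ N i)) / N|) atTop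
      (𝓝 (∑ g ∈ X, |∫ x, tent h g x ∂μ₁ - ∫ x, tent h g x ∂μ₂|)) := by
    refine tendsto_finsetSum _ fun g _ => ?_
    exact ((h₁.weak _ (tent_cont_bdd h g).1 (tent_cont_bdd h g).2).sub
      (h₂.weak _ (tent_cont_bdd h g).1 (tent_cont_bdd h g).2)).abs
  have e3' := e3.eventually (gt_mem_nhds hsum)
  have e4 : Tendsto (fun N : ℕ => 1 - (∑ i, tent h' c' (lam₁ N i)) / N - 1 / N) atTop
      (𝓝 (1 - ∫ x, tent h' c' x ∂μ₁ - 0)) := by
    refine Tendsto.sub (tendsto_const_nhds.sub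
      (h₁.weak _ (tent_cont_bdd h' c').1 (tent_cont_bdd h' c').2)) ?_
    exact tendsto_one_div_atTop_nhds_zero_nat
  rw [sub_zero] at e4
  have e4' := e4.eventually (lt_mem_nhds hk)
  filter_upwards [e1, e2, e3', e4', eventually_gt_atTop 0] with N q1 q2 q3 q4 hN
  have hNr : (0 : ℝ) < N := by exact_mod_cast hN
  have : Nonempty (Fin N) := ⟨⟨0, hN⟩⟩
  have hx : ∀ i, lam₁ N i ≤ c + Δ := fun i =>
    (le_ciSup (Set.finite_range (lam₁ N)).bddAbove i).trans q1.le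
  have hy : ∀ i, l ≤ lam₂ N i := fun i =>
    q2.le.trans (ciInf_le (Set.finite_range (lam₂ N)).bddBelow i)
  have hd : ∑ g ∈ X, |∑ i, tent h g (lam₁ N i) - ∑ i, tent h g (lam₂ N i)| ≤ δ * N := by
    have : ∑ g ∈ X, |∑ i, tent h g (lam₁ N i) - ∑ i, tent h g (lam₂ N i)| =
        (∑ g ∈ X, |(∑ i, tent h g (lam₁ N i)) / N - (∑ i, tent h g (lam₂ N i)) / N|) * N := by
      rw [Finset.sum_mul]
      refine Finset.sum_congr rfl fun g _ => ?_
      rw [← sub_div, abs_div, abs_of_pos hNr, div_mul_cancel₀ _ hNr.ne']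
    rw [this]
    exact mul_le_mul_of_nonneg_right q3.le hNr.le
  have hcard : 2 * κ * N + 1 ≤ (#{i | c ≤ lam₁ N i} : ℝ) := by
    have h5 : (N : ℝ) - ∑ i, tent h' c' (lam₁ N i) ≤ #{i | c ≤ lam₁ N i} := by
      rw [Finset.card_filter]
      push_cast
      have : (N : ℝ) = ∑ _i : Fin N, (1 : ℝ) := by simp
      rw [this, ← Finset.sum_sub_distrib]
      refine Finset.sum_le_sum fun i _ => ?_
      split_ifs with h6
      · linarith [tent_nonneg h' c' (lam₁ N i)]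
      · rw [tent_left hh' c' _ (by linarith [not_le.mp h6])]
        norm_num
    have h6 : 2 * κ * N < (N : ℝ) - ∑ i, tent h' c' (lam₁ N i) - 1 := by
      have := mul_lt_mul_of_pos_right q4 hNr
      have h7 : (1 - (∑ i, tent h' c' (lam₁ N i)) / N - 1 / N) * (N : ℝ) =
          (N : ℝ) - ∑ i, tent h' c' (lam₁ N i) - 1 := by
        field_simp
      rw [h7] at this
      exact this
    linarith
  have hmain := (nice_LL (hU N) hβ).compare' (by positivity) (lam₁ N) (lam₂ N) c l η h Δ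
    hlc hη hh hΔ hx hy X hX κ δ hκ hN hd hδκ hcard
  rw [EP_eq, EP_eq]
  have h8 : β / 2 * (Δ + η + δ * (c - l) / κ) =
      (1 / (N : ℝ)) * (β * N / 2 * (Δ + η + δ * (c - l) / κ)) := by
    field_simp
  rw [h8, ← mul_add]
  exact mul_le_mul_of_nonneg_left hmain (by positivity)

/-- mass near the upper edge -/
theorem edge_mass (μ : Measure ℝ) [IsProbabilityMeasure μ] (b ε : ℝ) (hb : IsGreatest (supp μ) b)
    (hε : 0 < ε) : ∫ x, tent (ε / 4) (b - ε) x ∂μ < 1 := by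
  have h1 : 0 < μ (Set.Ioo (b - ε / 2) (b + ε / 2)) := hb.1 (ε / 2) (by positivity)
  have hint : ∀ g : ℝ, Integrable (fun x => tent (ε / 4) g x) μ := fun g =>
    Integrable.of_bound (C := 1) (continuous_tent _ _).aestronglyMeasurable
      (Filter.Eventually.of_forall fun x => by
        rw [Real.norm_eq_abs, abs_of_nonneg (tent_nonneg _ _ _)]; exact tent_le _ _ _)
  have h2 : 0 < ∫ x, (1 - tent (ε / 4) (b - ε) x) ∂μ := by
    have hI' : Integrable (fun x => 1 - tent (ε / 4) (b - ε) x) μ :=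
      (integrable_const _).sub (hint _)
    refine (integral_pos_iff_support_of_nonneg (f := fun x => 1 - tent (ε / 4) (b - ε) x)
      (fun x => by
        show 0 ≤ 1 - tent (ε / 4) (b - ε) x
        linarith [tent_le (ε / 4) (b - ε) x]) hI').mpr ?_
    refine lt_of_lt_of_le h1 (measure_mono fun x hx => ?_)
    rw [Function.mem_support]
    rw [tent_right (by positivity) (b - ε) x (by linarith [hx.1])]
    norm_num
  rw [integral_sub (integrable_const _) (hint _)] at h2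
  simp only [integral_const, probReal_univ, smul_eq_mul, mul_one] at h2
  linarith

/-- the parameters, for a given limit measure and a given precision -/
theorem exists_params (μ : Measure ℝ) [IsProbabilityMeasure μ] (a b ε : ℝ)
    (hb : IsGreatest (supp μ) b) (hε : 0 < ε) :
    ∃ (c l κ δ c' h' : ℝ) (X : Finset ℝ), l ≤ c ∧ 0 < κ ∧ 0 < δ ∧ δ ≤ κ ∧ 0 < h' ∧ c ≤ c' ∧
      (∀ x y, l ≤ y → x ≤ c + 2 * ε → y + ε < x → ∃ g ∈ X, y ≤ g ∧ g + ε / 2 ≤ x) ∧
      b < c + 2 * ε ∧ l < a ∧ 2 * κ < 1 - ∫ x, tent h' c' x ∂μ ∧ δ * (c - l) / κ ≤ ε := by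
  have hm := edge_mass μ b ε hb hε
  obtain ⟨X, hX⟩ := exists_grid (min a (b - ε) - 1) (b - ε + 2 * ε) (ε / 2) (by positivity)
  set I := ∫ x, tent (ε / 4) (b - ε) x ∂μ with hI
  set κ := (1 - I) / 4 with hκdef
  have hκ : 0 < κ := by rw [hκdef]; linarith
  set l := min a (b - ε) - 1 with hl
  have hl1 : l ≤ b - ε - 1 := by rw [hl]; linarith [min_le_right a (b - ε)]
  have hl2 : l ≤ a - 1 := by rw [hl]; linarith [min_le_left a (b - ε)]
  have hcl : 0 < (b - ε) - l := by linarith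
  refine ⟨b - ε, l, κ, min κ (ε * κ / ((b - ε) - l)), b - ε, ε / 4, X, by linarith, hκ,
    lt_min hκ (by positivity), min_le_left _ _, by positivity, le_rfl, ?_, by linarith, by linarith,
    ?_, ?_⟩
  · intro x y h1 h2 h3
    exact hX x y h1 h2 (by linarith)
  · rw [← hI, hκdef]; linarith
  · rw [div_le_iff₀ hκ]
    have h1 : min κ (ε * κ / ((b - ε) - l)) ≤ ε * κ / ((b - ε) - l) := min_le_right _ _
    calc min κ (ε * κ / ((b - ε) - l)) * ((b - ε) - l)
        ≤ ε * κ / ((b - ε) - l) * ((b - ε) - l) := mul_le_mul_of_nonneg_right h1 hcl.le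
      _ = ε * κ := div_mul_cancel₀ _ hcl.ne'

/-- universality -/
theorem universality (hU : ∀ N, IsHaar (P N) (U N)) {β : ℝ} (hβ : 0 ≤ β) (μ : Measure ℝ)
    [IsProbabilityMeasure μ] (lam lam' : ∀ N : ℕ, Fin N → ℝ) (h : Admissible μ lam)
    (h' : Admissible μ lam') :
    Tendsto (fun N => EP P U β lam N - EP P U β lam' N) atTop (𝓝 0) := by
  obtain ⟨a, ha, _⟩ := h.smallest
  obtain ⟨b, hb, _⟩ := h.largest
  have key : ∀ ε > 0, ∀ lam₁ lam₂ : ∀ N : ℕ, Fin N → ℝ, Admissible μ lam₁ → Admissible μ lam₂ →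
      ∀ᶠ N in atTop, EP P U β lam₁ N ≤ EP P U β lam₂ N + 2 * β * ε := by
    intro ε hε lam₁ lam₂ h₁ h₂
    obtain ⟨c, l, κ, δ, c', h'', X, p1, p2, p3, p4, p5, p6, p7, p8, p9, p10, p11⟩ :=
      exists_params μ a b ε hb hε
    have := asym hU hβ c l ε (ε / 2) (2 * ε) κ δ p1 hε.le (by positivity) (by positivity) p2 p4 X p7
      μ μ lam₁ lam₂ h₁ h₂ b a hb ha p8 p9 c' h'' p5 p6 p10 (by simpa using p3)
    filter_upwards [this] with N hN
    refine hN.trans ?_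
    have h1 : β / 2 * (2 * ε + ε + δ * (c - l) / κ) ≤ β / 2 * (2 * ε + ε + ε) :=
      mul_le_mul_of_nonneg_left (by linarith) (by positivity)
    linarith
  rw [Metric.tendsto_atTop']
  intro ε hε
  have hpos : 0 < ε / (4 * (β + 1)) := by positivity
  have hlt : 2 * β * (ε / (4 * (β + 1))) < ε := by
    have h1 : 2 * β * (ε / (4 * (β + 1))) = ε * (β / (2 * (β + 1))) := by
      field_simp
      ring
    rw [h1]
    have h2 : β / (2 * (β + 1)) < 1 := by
      rw [div_lt_one (by positivity)]; linarith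
    nlinarith
  have e1 := key _ hpos lam lam' h h'
  have e2 := key _ hpos lam' lam h' h
  obtain ⟨N₀, hN₀⟩ := (e1.and e2).exists_forall_of_atTop
  refine ⟨N₀, fun N hN => ?_⟩
  obtain ⟨q1, q2⟩ := hN₀ N hN.le
  rw [Real.dist_eq, sub_zero, abs_lt]
  constructor <;> linarith

/-- uniform comparison near a measure -/
theorem near (hU : ∀ N, IsHaar (P N) (U N)) {β : ℝ} (hβ : 0 ≤ β) (μ : Measure ℝ)
    [IsProbabilityMeasure μ] (ν : ℕ → Measure ℝ) [∀ k, IsProbabilityMeasure (ν k)]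
    (hw : ∀ f : ℝ → ℝ, Continuous f → (∃ C, ∀ x, |f x| ≤ C) →
      Tendsto (fun k => ∫ x, f x ∂(ν k)) atTop (𝓝 (∫ x, f x ∂μ)))
    (a b : ℝ) (ak bk : ℕ → ℝ) (ha : IsLeast (supp μ) a) (hb : IsGreatest (supp μ) b)
    (hak : ∀ k, IsLeast (supp (ν k)) (ak k)) (hbk : ∀ k, IsGreatest (supp (ν k)) (bk k))
    (hat : Tendsto ak atTop (𝓝 a)) (hbt : Tendsto bk atTop (𝓝 b)) (ε : ℝ) (hε : 0 < ε) :
    ∀ᶠ k in atTop, ∀ lam lam' : ∀ N : ℕ, Fin N → ℝ, Admissible μ lam → Admissible (ν k) lam' →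
      ∀ᶠ N in atTop, |EP P U β lam N - EP P U β lam' N| ≤ 2 * β * ε := by
  obtain ⟨c, l, κ, δ, c', h', X, p1, p2, p3, p4, p5, p6, p7, p8, p9, p10, p11⟩ :=
    exists_params μ a b ε hb hε
  have e1 : ∀ᶠ k in atTop, bk k < c + 2 * ε := hbt.eventually (gt_mem_nhds p8)
  have e2 : ∀ᶠ k in atTop, l < ak k := hat.eventually (lt_mem_nhds p9)
  have e3 : ∀ᶠ k in atTop, 2 * κ < 1 - ∫ x, tent h' c' x ∂(ν k) := by
    have : Tendsto (fun k => 1 - ∫ x, tent h' c' x ∂(ν k)) atTop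
        (𝓝 (1 - ∫ x, tent h' c' x ∂μ)) :=
      tendsto_const_nhds.sub (hw _ (tent_cont_bdd h' c').1 (tent_cont_bdd h' c').2)
    exact this.eventually (lt_mem_nhds p10)
  have e4 : ∀ᶠ k in atTop, ∑ g ∈ X, |∫ x, tent (ε / 2) g x ∂μ - ∫ x, tent (ε / 2) g x ∂(ν k)| < δ := by
    have : Tendsto (fun k => ∑ g ∈ X, |∫ x, tent (ε / 2) g x ∂μ - ∫ x, tent (ε / 2) g x ∂(ν k)|)
        atTop (𝓝 (∑ g ∈ X, |∫ x, tent (ε / 2) g x ∂μ - ∫ x, tent (ε / 2) g x ∂μ|)) :=
      tendsto_finsetSum _ fun g _ => (tendsto_const_nhds.sub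
        (hw _ (tent_cont_bdd (ε / 2) g).1 (tent_cont_bdd (ε / 2) g).2)).abs
    refine this.eventually (gt_mem_nhds ?_)
    simpa using p3
  filter_upwards [e1, e2, e3, e4] with k q1 q2 q3 q4 lam lam' hl hl'
  have f1 := asym hU hβ c l ε (ε / 2) (2 * ε) κ δ p1 hε.le (by positivity) (by positivity) p2 p4 X p7
      μ (ν k) lam lam' hl hl' b (ak k) hb (hak k) p8 q2 c' h' p5 p6 p10 q4
  have f2 := asym hU hβ c l ε (ε / 2) (2 * ε) κ δ p1 hε.le (by positivity) (by positivity) p2 p4 X p7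
      (ν k) μ lam' lam hl' hl (bk k) a (hbk k) ha q1 p9 c' h' p5 p6 q3
      (by simp only [abs_sub_comm (∫ x, tent (ε / 2) _ x ∂(ν k))]; exact q4)
  filter_upwards [f1, f2] with N g1 g2
  have h1 : β / 2 * (2 * ε + ε + δ * (c - l) / κ) ≤ β / 2 * (2 * ε + ε + ε) :=
    mul_le_mul_of_nonneg_left (by linarith) (by positivity)
  rw [abs_le]
  constructor <;> linarith

/-- closedness of the class of measures for which the limit exists -/
theorem closedness (hU : ∀ N, IsHaar (P N) (U N)) {β : ℝ} (hβ : 0 ≤ β) (μ : Measure ℝ)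
    [IsProbabilityMeasure μ] (ν : ℕ → Measure ℝ) [∀ k, IsProbabilityMeasure (ν k)]
    (hw : ∀ f : ℝ → ℝ, Continuous f → (∃ C, ∀ x, |f x| ≤ C) →
      Tendsto (fun k => ∫ x, f x ∂(ν k)) atTop (𝓝 (∫ x, f x ∂μ)))
    (a b : ℝ) (ak bk : ℕ → ℝ) (ha : IsLeast (supp μ) a) (hb : IsGreatest (supp μ) b)
    (hak : ∀ k, IsLeast (supp (ν k)) (ak k)) (hbk : ∀ k, IsGreatest (supp (ν k)) (bk k))
    (hat : Tendsto ak atTop (𝓝 a)) (hbt : Tendsto bk atTop (𝓝 b))
    (q : ℕ → ℝ) (hq : ∀ k, ∃ lam, Admissible (ν k) lam ∧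
      Tendsto (EP P U β lam) atTop (𝓝 (q k))) :
    ∃ p, ∀ lam, Admissible μ lam → Tendsto (EP P U β lam) atTop (𝓝 p) ∧ Tendsto q atTop (𝓝 p) := by
  have key : ∀ ε > 0, ∀ᶠ k in atTop, ∀ lam : ∀ N : ℕ, Fin N → ℝ, Admissible μ lam →
      ∀ᶠ N in atTop, |EP P U β lam N - q k| < ε := by
    intro ε hε
    have hpos : 0 < ε / (4 * (β + 1)) := by positivity
    have hlt : 2 * β * (ε / (4 * (β + 1))) < ε / 2 := by
      have h1 : 2 * β * (ε / (4 * (β + 1))) = ε / 2 * (β / (β + 1)) := by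
        field_simp
        ring
      rw [h1]
      have h2 : β / (β + 1) < 1 := by
        rw [div_lt_one (by positivity)]; linarith
      nlinarith
    filter_upwards [near hU hβ μ ν hw a b ak bk ha hb hak hbk hat hbt _ hpos] with k hk lam hlam
    obtain ⟨lam', hl', hq'⟩ := hq k
    have h1 := hk lam lam' hlam hl'
    have h2 : ∀ᶠ N in atTop, |EP P U β lam' N - q k| < ε / 2 := by
      have := Metric.tendsto_nhds.mp hq' (ε / 2) (by positivity)
      simpa only [Real.dist_eq] using this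
    filter_upwards [h1, h2] with N g1 g2
    calc |EP P U β lam N - q k| = |(EP P U β lam N - EP P U β lam' N) +
          (EP P U β lam' N - q k)| := by ring_nf
      _ ≤ _ := abs_add_le _ _
      _ < ε := by linarith
  by_cases hex : ∃ lam, Admissible μ lam
  · obtain ⟨lam₀, hl₀⟩ := hex
    have hC : CauchySeq (EP P U β lam₀) := by
      rw [Metric.cauchySeq_iff']
      intro ε hε
      obtain ⟨k, hk⟩ := (key (ε / 2) (by positivity)).exists
      obtain ⟨N₀, hN₀⟩ := (hk lam₀ hl₀).exists_forall_of_atTop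
      refine ⟨N₀, fun N hN => ?_⟩
      rw [Real.dist_eq]
      calc |EP P U β lam₀ N - EP P U β lam₀ N₀| = |(EP P U β lam₀ N - q k) -
            (EP P U β lam₀ N₀ - q k)| := by ring_nf
        _ ≤ |EP P U β lam₀ N - q k| + |EP P U β lam₀ N₀ - q k| := abs_sub _ _
        _ < ε := by linarith [hN₀ N hN, hN₀ N₀ le_rfl]
    obtain ⟨p, hp⟩ := cauchySeq_tendsto_of_complete hC
    refine ⟨p, fun lam hlam => ⟨?_, ?_⟩⟩
    · have h1 := universality hU hβ μ lam lam₀ hlam hl₀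
      have h2 := h1.add hp
      simpa using h2
    · rw [Metric.tendsto_nhds]
      intro ε hε
      filter_upwards [key (ε / 2) (by positivity)] with k hk
      have h1 := hk lam₀ hl₀
      have h2 := Metric.tendsto_nhds.mp hp (ε / 2) (by positivity)
      obtain ⟨N, g1, g2⟩ := (h1.and h2).exists
      rw [Real.dist_eq] at g2 ⊢
      calc |q k - p| = |(EP P U β lam₀ N - p) - (EP P U β lam₀ N - q k)| := by ring_nf
        _ ≤ |EP P U β lam₀ N - p| + |EP P U β lam₀ N - q k| := abs_sub _ _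
        _ < ε := by linarith
  · exact ⟨0, fun lam hlam => absurd ⟨lam, hlam⟩ hex⟩

end Vale.Agent.P166
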