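import Vale.Agent.H16.SG.Det
import Vale.Agent.H16.SG.Defs

/-!
# P166: the expected pressure as a function of the eigenvalues
-/

namespace Vale.Agent.P166

open Finset MeasureTheory Matrix

variable {N : ℕ}

/-- the squared coordinates of `U σ` -/
noncomputable def gg (U : Matrix (Fin N) (Fin N) ℝ) (σ : Fin N → Bool) (i : Fin N) : ℝ :=
  ((U *ᵥ spin σ) i) ^ 2

theorem gg_nonneg (U : Matrix (Fin N) (Fin N) ℝ) (σ : Fin N → Bool) (i : Fin N) : 0 ≤ gg U σ i :=
  sq_nonneg _

theorem quad_eq (lam : Fin N → ℝ) (U : Matrix (Fin N) (Fin N) ℝ) (σ : Fin N → Bool) :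
    spin σ ⬝ᵥ coupling lam U *ᵥ spin σ = ∑ i, lam i * gg U σ i := by
  unfold coupling gg
  rw [← Matrix.mulVec_mulVec, ← Matrix.mulVec_mulVec, Matrix.dotProduct_mulVec,
    Matrix.vecMul_transpose]
  simp only [dotProduct, Matrix.mulVec_diagonal]
  refine Finset.sum_congr rfl fun i _ => ?_
  ring

theorem spin_sq (σ : Fin N → Bool) (i : Fin N) : spin σ i * spin σ i = 1 := by
  unfold spin; split_ifs <;> norm_num

theorem sum_gg (U : Matrix (Fin N) (Fin N) ℝ) (hU : U ∈ Matrix.orthogonalGroup (Fin N) ℝ)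
    (σ : Fin N → Bool) : ∑ i, gg U σ i = N := by
  have h1 : ∑ i, gg U σ i = (U *ᵥ spin σ) ⬝ᵥ (U *ᵥ spin σ) := by
    simp only [dotProduct, gg, sq]
  rw [h1, Matrix.dotProduct_mulVec, ← Matrix.mulVec_transpose, Matrix.mulVec_mulVec]
  have h2 : Uᵀ * U = 1 := (Matrix.mem_orthogonalGroup_iff' (Fin N) ℝ).mp hU
  rw [h2, Matrix.one_mulVec]
  simp only [dotProduct, spin_sq]
  simp

/-- the log partition function -/
noncomputable def LL (β : ℝ) (lam : Fin N → ℝ) (U : Matrix (Fin N) (Fin N) ℝ) : ℝ :=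
  Real.log ((1 / 2 : ℝ) ^ N * ∑ σ : Fin N → Bool, Real.exp (β / 2 * ∑ i, lam i * gg U σ i))

theorem pressure_eq (β : ℝ) (lam : Fin N → ℝ) (U : Matrix (Fin N) (Fin N) ℝ) :
    pressure β (coupling lam U) = (1 / (N : ℝ)) * LL β lam U := by
  unfold pressure LL
  simp only [quad_eq]

theorem LL_mono {β : ℝ} (hβ : 0 ≤ β) (U : Matrix (Fin N) (Fin N) ℝ) {lam lam' : Fin N → ℝ}
    (h : lam ≤ lam') : LL β lam U ≤ LL β lam' U := by
  unfold LL
  refine Real.log_le_log (by positivity) ?_
  refine mul_le_mul_of_nonneg_left (Finset.sum_le_sum fun σ _ => ?_) (by positivity)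
  refine Real.exp_le_exp.mpr (mul_le_mul_of_nonneg_left ?_ (by positivity))
  exact Finset.sum_le_sum fun i _ => mul_le_mul_of_nonneg_right (h i) (gg_nonneg _ _ _)

theorem LL_shift (β : ℝ) (U : Matrix (Fin N) (Fin N) ℝ)
    (hU : U ∈ Matrix.orthogonalGroup (Fin N) ℝ) (lam : Fin N → ℝ) (t : ℝ) :
    LL β (fun i => lam i + t) U = LL β lam U + β * N / 2 * t := by
  unfold LL
  have h1 : ∀ σ : Fin N → Bool, Real.exp (β / 2 * ∑ i, (lam i + t) * gg U σ i) =
      Real.exp (β * N / 2 * t) * Real.exp (β / 2 * ∑ i, lam i * gg U σ i) := by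
    intro σ
    rw [← Real.exp_add]
    congr 1
    simp only [add_mul, Finset.sum_add_distrib, ← Finset.mul_sum, sum_gg U hU]
    ring
  simp only [h1, ← Finset.mul_sum]
  rw [show (1 / 2 : ℝ) ^ N * (Real.exp (β * N / 2 * t) *
    ∑ σ : Fin N → Bool, Real.exp (β / 2 * ∑ i, lam i * gg U σ i)) =
    ((1 / 2 : ℝ) ^ N * ∑ σ : Fin N → Bool, Real.exp (β / 2 * ∑ i, lam i * gg U σ i)) *
      Real.exp (β * N / 2 * t) by ring]
  rw [Real.log_mul (by positivity) (by positivity), Real.log_exp]

theorem LL_zero (β : ℝ) (U : Matrix (Fin N) (Fin N) ℝ) : LL β (fun _ => 0) U = 0 := by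
  unfold LL
  simp [← mul_pow]

theorem LL_bound {β : ℝ} (hβ : 0 ≤ β) (U : Matrix (Fin N) (Fin N) ℝ)
    (hU : U ∈ Matrix.orthogonalGroup (Fin N) ℝ) (lam : Fin N → ℝ) (C : ℝ)
    (h : ∀ i, |lam i| ≤ C) : |LL β lam U| ≤ β * N / 2 * C := by
  have h1 := LL_shift β U hU (fun _ => 0) C
  have h2 := LL_shift β U hU (fun _ => 0) (-C)
  rw [LL_zero] at h1 h2
  have h3 : LL β lam U ≤ LL β (fun _ => 0 + C) U :=
    LL_mono hβ U (fun i => by have := (abs_le.mp (h i)).2; simpa using this)
  have h4 : LL β (fun _ => 0 + -C) U ≤ LL β lam U :=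
    LL_mono hβ U (fun i => by have := (abs_le.mp (h i)).1; simpa using this)
  rw [abs_le]
  constructor <;> linarith

/-- convexity of log-sum-exp -/
theorem lse_convex {ι : Type*} [Fintype ι] [Nonempty ι] (a b : ι → ℝ) (t s : ℝ) (ht : 0 ≤ t)
    (hs : 0 ≤ s) (hts : t + s = 1) :
    Real.log (∑ i, Real.exp (t * a i + s * b i)) ≤
      t * Real.log (∑ i, Real.exp (a i)) + s * Real.log (∑ i, Real.exp (b i)) := by
  set A := ∑ i, Real.exp (a i) with hA
  set B := ∑ i, Real.exp (b i) with hB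
  have hApos : 0 < A := Finset.sum_pos (fun i _ => Real.exp_pos _) Finset.univ_nonempty
  have hBpos : 0 < B := Finset.sum_pos (fun i _ => Real.exp_pos _) Finset.univ_nonempty
  have hsumpos : 0 < ∑ i, Real.exp (t * a i + s * b i) :=
    Finset.sum_pos (fun i _ => Real.exp_pos _) Finset.univ_nonempty
  have hc : ∀ i, Real.exp (t * a i + s * b i) ≤
      Real.exp (t * Real.log A + s * Real.log B) *
        (t * (Real.exp (a i) / A) + s * (Real.exp (b i) / B)) := by
    intro i
    have h1 := Real.geom_mean_le_arith_mean2_weighted ht hs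
      (div_nonneg (Real.exp_pos (a i)).le hApos.le) (div_nonneg (Real.exp_pos (b i)).le hBpos.le) hts
    have h2 : Real.exp (t * a i + s * b i) = Real.exp (t * Real.log A + s * Real.log B) *
        ((Real.exp (a i) / A) ^ t * (Real.exp (b i) / B) ^ s) := by
      rw [Real.rpow_def_of_pos (div_pos (Real.exp_pos _) hApos),
        Real.rpow_def_of_pos (div_pos (Real.exp_pos _) hBpos),
        Real.log_div (Real.exp_pos _).ne' hApos.ne', Real.log_div (Real.exp_pos _).ne' hBpos.ne',
        Real.log_exp, Real.log_exp, ← Real.exp_add, ← Real.exp_add]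
      congr 1
      ring
    rw [h2]
    exact mul_le_mul_of_nonneg_left h1 (Real.exp_pos _).le
  have hsum : ∑ i, Real.exp (t * a i + s * b i) ≤ Real.exp (t * Real.log A + s * Real.log B) := by
    refine (Finset.sum_le_sum fun i _ => hc i).trans (le_of_eq ?_)
    rw [← Finset.mul_sum, Finset.sum_add_distrib, ← Finset.mul_sum, ← Finset.mul_sum,
      ← Finset.sum_div, ← Finset.sum_div, ← hA, ← hB, div_self hApos.ne', div_self hBpos.ne',
      mul_one, mul_one, hts, mul_one]
  calc Real.log (∑ i, Real.exp (t * a i + s * b i))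
      ≤ Real.log (Real.exp (t * Real.log A + s * Real.log B)) := Real.log_le_log hsumpos hsum
    _ = _ := Real.log_exp _

theorem LL_convex (β : ℝ) (U : Matrix (Fin N) (Fin N) ℝ) (x y : Fin N → ℝ) (t s : ℝ)
    (ht : 0 ≤ t) (hs : 0 ≤ s) (hts : t + s = 1) :
    LL β (t • x + s • y) U ≤ t * LL β x U + s * LL β y U := by
  have hp : (0 : ℝ) < (1 / 2 : ℝ) ^ N := by positivity
  have hsp : ∀ f : (Fin N → Bool) → ℝ, (0 : ℝ) < ∑ σ, Real.exp (f σ) := fun f =>
    Finset.sum_pos (fun i _ => Real.exp_pos _) Finset.univ_nonempty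
  unfold LL
  rw [Real.log_mul hp.ne' (hsp _).ne', Real.log_mul hp.ne' (hsp _).ne',
    Real.log_mul hp.ne' (hsp _).ne']
  have h1 := lse_convex (fun σ : Fin N → Bool => β / 2 * ∑ i, x i * gg U σ i)
    (fun σ => β / 2 * ∑ i, y i * gg U σ i) t s ht hs hts
  have h2 : ∀ σ : Fin N → Bool, β / 2 * ∑ i, (t • x + s • y) i * gg U σ i =
      t * (β / 2 * ∑ i, x i * gg U σ i) + s * (β / 2 * ∑ i, y i * gg U σ i) := by
    intro σ
    simp only [Pi.add_apply, Pi.smul_apply, smul_eq_mul, add_mul, Finset.sum_add_distrib,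
      mul_assoc, ← Finset.mul_sum]
    ring
  simp only [h2]
  have h3 : Real.log ((1 / 2 : ℝ) ^ N) = t * Real.log ((1 / 2 : ℝ) ^ N) +
      s * Real.log ((1 / 2 : ℝ) ^ N) := by rw [← add_mul, hts, one_mul]
  nlinarith [h1, h3]

section prob

variable {Ω : Type*} [MeasurableSpace Ω] {P : Measure Ω} [IsProbabilityMeasure P]
  {U : Ω → Matrix (Fin N) (Fin N) ℝ}

theorem measurable_LL (β : ℝ) (lam : Fin N → ℝ) :
    Measurable (fun A : Fin N → Fin N → ℝ => LL β lam (Matrix.of A)) := by
  unfold LL gg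
  refine Real.measurable_log.comp (Measurable.const_mul ?_ _)
  refine Finset.measurable_sum _ fun σ _ => Real.measurable_exp.comp (Measurable.const_mul ?_ _)
  refine Finset.measurable_sum _ fun i _ => Measurable.const_mul (Measurable.pow_const ?_ 2) _
  simp only [Matrix.mulVec, dotProduct, Matrix.of_apply]
  refine Finset.measurable_sum _ fun j _ => Measurable.mul_const ?_ _
  exact (measurable_pi_apply j).comp (measurable_pi_apply i)

theorem measurable_U (hU : IsHaar P U) :
    Measurable (fun ω => (fun i j => U ω i j : Fin N → Fin N → ℝ)) :=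
  measurable_pi_lambda _ fun i => measurable_pi_lambda _ fun j => hU.meas i j

theorem integrable_LL (hU : IsHaar P U) {β : ℝ} (hβ : 0 ≤ β) (lam : Fin N → ℝ) :
    Integrable (fun ω => LL β lam (U ω)) P := by
  obtain ⟨C, hC⟩ : ∃ C, ∀ i, |lam i| ≤ C := by
    refine ⟨∑ i, |lam i|, fun i => ?_⟩
    exact Finset.single_le_sum (f := fun i => |lam i|) (fun _ _ => abs_nonneg _) (Finset.mem_univ i)
  refine Integrable.of_bound (C := β * N / 2 * C) ?_ (Filter.Eventually.of_forall fun ω => ?_)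
  · exact ((measurable_LL β lam).comp (measurable_U hU)).aestronglyMeasurable
  · rw [Real.norm_eq_abs]
    exact LL_bound hβ (U ω) (hU.orth ω) lam C hC

theorem LL_symm (hU : IsHaar P U) (β : ℝ) (lam : Fin N → ℝ) (π : Equiv.Perm (Fin N)) :
    ∫ ω, LL β (lam ∘ π) (U ω) ∂P = ∫ ω, LL β lam (U ω) ∂P := by
  classical
  set V : Matrix (Fin N) (Fin N) ℝ := (1 : Matrix (Fin N) (Fin N) ℝ).submatrix (π.symm) id with hV
  have hVU : ∀ A : Matrix (Fin N) (Fin N) ℝ, V * A = A.submatrix (π.symm) id := by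
    intro A
    rw [hV]
    ext i j
    simp [Matrix.mul_apply, Matrix.one_apply]
  have hVo : V ∈ Matrix.orthogonalGroup (Fin N) ℝ := by
    rw [Matrix.mem_orthogonalGroup_iff, hVU]
    ext i j
    simp [hV, Matrix.one_apply, Matrix.star_eq_conjTranspose, eq_comm]
  have h1 : ∀ ω, LL β (lam ∘ π) (U ω) = LL β lam (V * U ω) := by
    intro ω
    unfold LL gg
    congr 3
    funext σ
    congr 2
    rw [← Equiv.sum_comp π (fun i => lam i * ((V * U ω) *ᵥ spin σ) i ^ 2)]
    refine Finset.sum_congr rfl fun i _ => ?_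
    rw [hVU]
    simp [Matrix.mulVec, dotProduct]
  simp only [h1]
  have h2 : ∫ ω, LL β lam (V * U ω) ∂P =
      ∫ A, LL β lam (Matrix.of A) ∂(P.map (fun ω => (fun i j => (V * U ω) i j : Fin N → Fin N → ℝ))) := by
    rw [integral_map]
    · rfl
    · refine Measurable.aemeasurable ?_
      refine measurable_pi_lambda _ fun i => measurable_pi_lambda _ fun j => ?_
      simp only [Matrix.mul_apply]
      exact Finset.measurable_sum _ fun k _ => (hU.meas k j).const_mul _
    · exact (measurable_LL β lam).aestronglyMeasurable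
  have h3 : ∫ ω, LL β lam (U ω) ∂P =
      ∫ A, LL β lam (Matrix.of A) ∂(P.map (fun ω => (fun i j => U ω i j : Fin N → Fin N → ℝ))) := by
    rw [integral_map (measurable_U hU).aemeasurable (measurable_LL β lam).aestronglyMeasurable]
    rfl
  rw [h2, h3, hU.inv V hVo]

/-- the expected log partition function -/
theorem nice_LL (hU : IsHaar P U) {β : ℝ} (hβ : 0 ≤ β) :
    Nice (β * N / 2) (fun lam : Fin N → ℝ => ∫ ω, LL β lam (U ω) ∂P) where
  mono := fun x y h => integral_mono (integrable_LL hU hβ x) (integrable_LL hU hβ y)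
    (fun ω => LL_mono hβ (U ω) h)
  shift := fun x t => by
    show ∫ ω, LL β (fun i => x i + t) (U ω) ∂P = (∫ ω, LL β x (U ω) ∂P) + β * N / 2 * t
    rw [integral_congr_ae (Filter.Eventually.of_forall fun ω => LL_shift β (U ω) (hU.orth ω) x t),
      integral_add (integrable_LL hU hβ x) (integrable_const _)]
    simp
  conv := by
    refine ⟨convex_univ, fun x _ y _ t s ht hs hts => ?_⟩
    simp only [smul_eq_mul]
    rw [← integral_const_mul, ← integral_const_mul, ← integral_add
      ((integrable_LL hU hβ x).const_mul t) ((integrable_LL hU hβ y).const_mul s)]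
    exact integral_mono (integrable_LL hU hβ _)
      (((integrable_LL hU hβ x).const_mul t).add ((integrable_LL hU hβ y).const_mul s))
      (fun ω => LL_convex β (U ω) x y t s ht hs hts)
  symm := fun π x => LL_symm hU β x π

end prob

end Vale.Agent.P166
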